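import Mathlib.Data.Matrix.Basis
import Mathlib.Data.Matrix.Mul
import Mathlib.Algebra.Group.Subgroup.Lattice
import Mathlib.GroupTheory.OrderOfElement
import Mathlib.Algebra.Ring.Subring.Basic
import Mathlib.Data.Fintype.Pigeonhole
import Mathlib.Tactic.NoncommRing
import Mathlib.Tactic.Abel

/-!
Units of a corner ring `E M E`, as pairs (element, inverse).
-/

set_option linter.all false

namespace Vale.Agent.P183.H317

/-- the units of the corner ring `E M E` -/
structure CU (M : Type) [Ring M] (E : M) where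
  v : M
  w : M
  v1 : E * v = v
  v2 : v * E = v
  w1 : E * w = w
  w2 : w * E = w
  vw : v * w = E
  wv : w * v = E

variable {M : Type} [Ring M] {E : M}

theorem CU.ext' {g h : CU M E} (e : g.v = h.v) : g = h := by
  have hw : g.w = h.w := by
    calc g.w = g.w * E := g.w2.symm
      _ = g.w * (h.v * h.w) := by rw [h.vw]
      _ = (g.w * g.v) * h.w := by rw [e, mul_assoc]
      _ = h.w := by rw [g.wv, h.w1]
  cases g; cases h
  simp only at e hw
  subst e hw
  rfl

theorem CU.inj : Function.Injective (fun g : CU M E => g.v) := fun _ _ h => CU.ext' h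

variable [hE : Fact (E * E = E)]

instance : Group (CU M E) where
  mul g h :=
    { v := g.v * h.v
      w := h.w * g.w
      v1 := by rw [← mul_assoc, g.v1]
      v2 := by rw [mul_assoc, h.v2]
      w1 := by rw [← mul_assoc, h.w1]
      w2 := by rw [mul_assoc, g.w2]
      vw := by
        rw [mul_assoc, ← mul_assoc h.v, h.vw, g.w1, g.vw]
      wv := by
        rw [mul_assoc, ← mul_assoc g.w, g.wv, h.v1, h.wv] }
  one := ⟨E, E, hE.out, hE.out, hE.out, hE.out, hE.out, hE.out⟩
  inv g := ⟨g.w, g.v, g.w1, g.w2, g.v1, g.v2, g.wv, g.vw⟩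
  mul_assoc a b c := CU.ext' (mul_assoc _ _ _)
  one_mul a := CU.ext' a.v1
  mul_one a := CU.ext' a.v2
  inv_mul_cancel a := CU.ext' a.wv

@[simp] theorem CU.mul_v (g h : CU M E) : (g * h).v = g.v * h.v := rfl
@[simp] theorem CU.one_v : (1 : CU M E).v = E := rfl
@[simp] theorem CU.inv_v (g : CU M E) : (g⁻¹).v = g.w := rfl

instance [Finite M] : Finite (CU M E) := Finite.of_injective _ CU.inj

/-- `m` is the matrix of an element of `K` -/
def Has (K : Subgroup (CU M E)) (m : M) : Prop := ∃ g ∈ K, g.v = m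

theorem has_one (K : Subgroup (CU M E)) : Has K E := ⟨1, K.one_mem, rfl⟩

theorem has_mul {K : Subgroup (CU M E)} {m n : M} (hm : Has K m) (hn : Has K n) :
    Has K (m * n) := by
  obtain ⟨g, hg, rfl⟩ := hm
  obtain ⟨h, hh, rfl⟩ := hn
  exact ⟨g * h, K.mul_mem hg hh, rfl⟩

theorem has_mem {K : Subgroup (CU M E)} {g : CU M E} (h : Has K g.v) : g ∈ K := by
  obtain ⟨g', hg', e⟩ := h
  rwa [CU.ext' e] at hg'

theorem has_w {K : Subgroup (CU M E)} {g : CU M E} (h : g ∈ K) : Has K g.w :=
  ⟨g⁻¹, K.inv_mem h, rfl⟩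

/-- the element `E + U` with `U ^ 2 = 0` -/
def el (U : M) (h1 : E * U = U) (h2 : U * E = U) (h0 : U * U = 0) : CU M E where
  v := E + U
  w := E - U
  v1 := by rw [mul_add, hE.out, h1]
  v2 := by rw [add_mul, hE.out, h2]
  w1 := by rw [mul_sub, hE.out, h1]
  w2 := by rw [sub_mul, hE.out, h2]
  vw := by rw [add_mul, mul_sub, mul_sub, hE.out, h1, h2, h0]; abel
  wv := by rw [sub_mul, mul_add, mul_add, hE.out, h1, h2, h0]; abel

theorem has_sub {K : Subgroup (CU M E)} {U : M} (h1 : E * U = U) (h2 : U * E = U)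
    (h0 : U * U = 0) (h : Has K (E + U)) : Has K (E - U) := by
  have : el U h1 h2 h0 ∈ K := has_mem h
  exact has_w this

/-- the commutator of `E + V` and `E + U` if `U V = 0` -/
theorem has_comm {K : Subgroup (CU M E)} {U V : M} (hU1 : E * U = U) (hU2 : U * E = U)
    (hU0 : U * U = 0) (hV1 : E * V = V) (hV2 : V * E = V) (hV0 : V * V = 0) (hUV : U * V = 0)
    (hU : Has K (E + U)) (hV : Has K (E + V)) : Has K (E + V * U) := by
  have h := has_mul (has_mul hV hU) (has_mul (has_sub hV1 hV2 hV0 hV) (has_sub hU1 hU2 hU0 hU))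
  have e1 : (E + V) * (E + U) = E + V + U + V * U := by
    rw [add_mul, mul_add, mul_add, hE.out, hU1, hV2]; abel
  have e2 : (E - V) * (E - U) = E - V - U + V * U := by
    rw [sub_mul, mul_sub, mul_sub, hE.out, hU1, hV2]; abel
  have e3 : (E + V + U + V * U) * (E - V - U + V * U) = E + V * U := by
    have a1 : E * (V * U) = V * U := by rw [← mul_assoc, hV1]
    have a2 : V * (V * U) = 0 := by rw [← mul_assoc, hV0, zero_mul]
    have a3 : U * (V * U) = 0 := by rw [← mul_assoc, hUV, zero_mul]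
    have a4 : V * U * E = V * U := by rw [mul_assoc, hU2]
    have a5 : V * U * V = 0 := by rw [mul_assoc, hUV, mul_zero]
    have a6 : V * U * U = 0 := by rw [mul_assoc, hU0, mul_zero]
    have a7 : V * U * (V * U) = 0 := by rw [mul_assoc, a3, mul_zero]
    rw [add_mul, add_mul, add_mul, mul_add, mul_add, mul_add, mul_add, mul_sub, mul_sub, mul_sub,
      mul_sub, mul_sub, mul_sub, mul_sub, mul_sub, hE.out, hU1, hV1, hV2, hV0, hU2, hUV, hU0, a1,
      a2, a3, a4, a5, a6, a7]
    abel
  rw [e1, e2, e3] at h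
  exact h

/-- adding -/
theorem has_add {K : Subgroup (CU M E)} {U V : M} (hU1 : E * U = U) (hV2 : V * E = V)
    (hVU : V * U = 0) (hU : Has K (E + U)) (hV : Has K (E + V)) : Has K (E + (U + V)) := by
  have h := has_mul hV hU
  have e : (E + V) * (E + U) = E + (U + V) := by
    rw [add_mul, mul_add, mul_add, hE.out, hU1, hV2, hVU]; abel
  rwa [e] at h

end Vale.Agent.P183.H317
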