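import Vale.Agent.P183.H317.Rank

/-!
Elimination: every element of an intermediate group lies in the group of its ring.
-/

set_option linter.all false

namespace Vale.Agent.P183.H317

open Matrix Finset

variable {A X N : Type} [Ring A] [Fintype X] [DecidableEq X] [Fintype N] [DecidableEq N]

namespace Su

variable (s : Su A X N)

theorem f_ne (a : N) : s.f a ≠ 0 := s.ne _

theorem wv_ap {s : Su A X N} (g : s.G) (a b : N) : ∑ z, g.w a z * g.v z b = s.E a b := by
  rw [← Matrix.mul_apply, g.wv]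

theorem vw_ap {s : Su A X N} (g : s.G) (a b : N) : ∑ z, g.v a z * g.w z b = s.E a b := by
  rw [← Matrix.mul_apply, g.vw]

/-- conjugates of block matrices, different columns -/
theorem conj_ne [Finite A] {K : Subgroup s.G} (hK : s.H ≤ K) {g : s.G} (hg : g ∈ K) {b c : N}
    (hbc : b ≠ c) (hq : s.q b = s.q c) {r : A} (h1 : s.f b * r = r) (h2 : r * s.f c = r)
    (x y : N) : g.v x b * r * g.w c y ∈ s.P K hK := by
  have e1 : s.f x * (g.v x b * r * g.w c y) = g.v x b * r * g.w c y := by
    rw [← mul_assoc, ← mul_assoc, bl]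
  have e2 : (g.v x b * r * g.w c y) * s.f y = g.v x b * r * g.w c y := by
    rw [mul_assoc, wr]
  refine s.homog_mem_P hK e1 e2 ?_
  intro a d had ha hd
  have hfa : s.f a = s.f x := by unfold f; rw [ha]
  have hfd : s.f d = s.f y := by unfold f; rw [hd]
  by_cases hxy : s.q x = s.q y
  · exact s.has_H hK had (by rw [ha, hd, hxy]) (by rw [hfa]; exact e1) (by rw [hfd]; exact e2)
  · have hxy' : x ≠ y := fun h => hxy (by rw [h])
    refine s.move hK hxy ha hd e1 e2 ?_
    refine s.rank_one hK (fun x => g.v x b * r) (fun y => g.w c y) ?_ ?_ ?_ ?_ hxy'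
    · intro x
      show s.f x * (g.v x b * r) = g.v x b * r
      rw [← mul_assoc, bl]
    · intro y
      exact wr g c y
    · show ∑ z, g.w c z * (g.v z b * r) = 0
      have : ∀ z, g.w c z * (g.v z b * r) = (g.w c z * g.v z b) * r := fun z => by rw [mul_assoc]
      rw [Finset.sum_congr rfl fun z _ => this z, ← Finset.sum_mul, wv_ap, s.E_ne (Ne.symm hbc),
        zero_mul]
    · have h := has_mul (has_mul ⟨g, hg, rfl⟩ (s.has_H hK hbc hq h1 h2)) (has_w hg)
      have e : g.v * (s.E + single b c r) * g.w =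
          s.E + Matrix.of fun x y => (g.v x b * r) * g.w c y := by
        rw [mul_add, add_mul, g.v2, g.vw]
        congr 1
        ext i j
        rw [mul_assoc, Matrix.mul_apply, Finset.sum_eq_single b]
        · rw [single_mul_ap, if_pos rfl, ← mul_assoc]
          rfl
        · intro k _ hk
          rw [single_mul_ap, if_neg hk, mul_zero]
        · intro h; exact absurd (Finset.mem_univ _) h
      rwa [e] at h

/-- conjugates of block matrices -/
theorem conj [Finite A] {K : Subgroup s.G} (hK : s.H ≤ K) {g : s.G} (hg : g ∈ K) {b c : N}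
    (hq : s.q b = s.q c) {r : A} (h1 : s.f b * r = r) (h2 : r * s.f c = r)
    (x y : N) : g.v x b * r * g.w c y ∈ s.P K hK := by
  by_cases hbc : b = c
  · subst hbc
    obtain ⟨d, hqd, hdb, _⟩ := s.three (s.q b) b b
    have hfd : s.f d = s.f b := by unfold f; rw [hqd]
    have key : g.v x b * r * g.w b y =
        ∑ z, (g.v x b * r * g.w d z) * (g.v z d * s.f b * g.w b y) := by
      have : ∀ z, (g.v x b * r * g.w d z) * (g.v z d * s.f b * g.w b y) =
          (g.v x b * r) * (g.w d z * g.v z d) * (s.f b * g.w b y) := by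
        intro z
        simp only [mul_assoc]
      rw [Finset.sum_congr rfl fun z _ => this z, ← Finset.sum_mul, ← Finset.mul_sum, wv_ap, E_same,
        hfd, wl, mul_assoc (g.v x b) r (s.f b), h2]
    rw [key]
    refine (s.P K hK).sum_mem fun z _ => (s.P K hK).mul_mem ?_ ?_
    · exact s.conj_ne hK hg (Ne.symm hdb) hqd.symm h1 (by rw [hfd]; exact h2) x z
    · exact s.conj_ne hK hg hdb hqd (by rw [hfd, ff]) (s.ff b) z y
  · exact s.conj_ne hK hg hbc hq h1 h2 x y

/-- a sum is invertible only if a summand is -/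
theorem unit_sum {ι : Type} (c : N) (F : Finset ι) (r : ι → A) (h1 : ∀ i, s.f c * r i = r i)
    (h2 : ∀ i, r i * s.f c = r i) (w : A) (hw : w * ∑ i ∈ F, r i = s.f c) :
    ∃ i ∈ F, ∃ w, s.f c * w = w ∧ w * s.f c = w ∧ w * r i = s.f c := by
  classical
  induction F using Finset.induction_on generalizing w with
  | empty =>
    rw [Finset.sum_empty, mul_zero] at hw
    exact absurd hw.symm (s.f_ne c)
  | insert i F hi ih =>
    rw [Finset.sum_insert hi] at hw
    obtain ⟨w1, hw1⟩ : ∃ w1, w1 = s.f c * w * s.f c := ⟨_, rfl⟩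
    have a1 : s.f c * w1 = w1 := by rw [hw1, ← mul_assoc, ← mul_assoc, ff]
    have a2 : w1 * s.f c = w1 := by rw [hw1, mul_assoc, ff]
    have a3 : w1 * r i + w1 * ∑ j ∈ F, r j = s.f c := by
      have hs : s.f c * (r i + ∑ j ∈ F, r j) = r i + ∑ j ∈ F, r j := by
        rw [mul_add, h1, Finset.mul_sum, Finset.sum_congr rfl fun j _ => h1 j]
      rw [← mul_add, hw1, mul_assoc, mul_assoc, hs, hw, ff]
    rcases s.loc (s.q c) (w1 * r i) (by rw [← mul_assoc]; congr 1) (by
        rw [mul_assoc]; congr 1; exact h2 i) with ⟨w', hw'⟩ | ⟨w', hw'⟩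
    · refine ⟨i, Finset.mem_insert_self _ _, s.f c * w' * w1, ?_, ?_, ?_⟩
      · rw [← mul_assoc, ← mul_assoc, ff]
      · rw [mul_assoc, a2]
      · rw [mul_assoc, mul_assoc]
        have : w' * (w1 * r i) = s.f c := hw'
        rw [this, ff]
    · have a4 : s.e (s.q c) - w1 * r i = w1 * ∑ j ∈ F, r j := by
        rw [sub_eq_iff_eq_add']
        exact a3.symm
      rw [a4, ← mul_assoc] at hw'
      obtain ⟨j, hj, w2, b1, b2, b3⟩ := ih (w' * w1) hw'
      exact ⟨j, Finset.mem_insert_of_mem hj, w2, b1, b2, b3⟩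

/-- one-sided inverses are inverses -/
theorem inv_two {a b : N} {r θ : A} (h1 : s.f a * r = r) (h2 : r * s.f b = r)
    (h3 : s.f b * θ = θ) (h4 : θ * s.f a = θ) (h : θ * r = s.f b) : r * θ = s.f a := by
  have a1 : s.e (s.q a) * (r * θ) = r * θ := by rw [← mul_assoc]; congr 1
  have a2 : (r * θ) * s.e (s.q a) = r * θ := by rw [mul_assoc]; congr 1
  have a3 : (r * θ) * (r * θ) = r * θ := by
    rw [mul_assoc, ← mul_assoc θ, h, ← mul_assoc, h2]
  rcases s.loc (s.q a) (r * θ) a1 a2 with ⟨w, hw⟩ | ⟨w, hw⟩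
  · calc r * θ = s.e (s.q a) * (r * θ) := a1.symm
      _ = (w * (r * θ)) * (r * θ) := by rw [hw]
      _ = w * (r * θ) := by rw [mul_assoc, a3]
      _ = s.f a := hw
  · exfalso
    have a5 : r * θ = 0 := by
      calc r * θ = s.e (s.q a) * (r * θ) := a1.symm
        _ = (w * (s.e (s.q a) - r * θ)) * (r * θ) := by rw [hw]
        _ = 0 := by rw [mul_assoc, sub_mul, a1, a3, sub_self, mul_zero]
    have a6 : s.f b = 0 := by
      calc s.f b = (θ * r) * (θ * r) := by rw [h, ff]
        _ = θ * (r * θ) * r := by simp only [mul_assoc]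
        _ = 0 := by rw [a5, mul_zero, zero_mul]
    exact s.f_ne b a6

/-- adding multiples of a row to other rows -/
theorem has_col {K : Subgroup s.G} (y : N) (t : N → A) (h1 : ∀ x, s.f x * t x = t x)
    (h2 : ∀ x, t x * s.f y = t x) (S : Finset N) (hy : y ∉ S)
    (h : ∀ x ∈ S, Has K (s.E + single x y (t x))) :
    Has K (s.E + ∑ x ∈ S, single x y (t x)) := by
  induction S using Finset.induction_on with
  | empty => rw [Finset.sum_empty, add_zero]; exact has_one K
  | insert x S hx ih =>
    rw [Finset.sum_insert hx]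
    have hyx : y ≠ x := fun h => hy (by rw [h]; exact Finset.mem_insert_self _ _)
    have hyS : y ∉ S := fun h => hy (Finset.mem_insert_of_mem h)
    refine has_add (s.E_single (h1 x)) ?_ ?_ (h x (Finset.mem_insert_self _ _))
      (ih hyS fun z hz => h z (Finset.mem_insert_of_mem hz))
    · rw [Finset.sum_mul]
      exact Finset.sum_congr rfl fun z _ => s.single_E (h2 z)
    · rw [Finset.sum_mul]
      exact Finset.sum_eq_zero fun z _ => Matrix.single_mul_single_of_ne _ _ _ _ hyx _

theorem col_mul_ap (y : N) (t : N → A) (S : Finset N) (M : Matrix N N A) (hM : s.E * M = M)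
    (a b : N) : ((s.E + ∑ x ∈ S, single x y (t x)) * M) a b =
      M a b + if a ∈ S then t a * M y b else 0 := by
  rw [add_mul, hM, Matrix.add_apply, Finset.sum_mul, Matrix.sum_apply]
  congr 1
  have : ∀ x, (single x y (t x) * M) a b = if a = x then t x * M y b else 0 := fun x =>
    single_mul_ap _ _ _ _ _ _
  rw [Finset.sum_congr rfl fun x _ => this x, Finset.sum_ite_eq]

/-- elimination to monomial form -/
theorem elim [Finite A] {K : Subgroup s.G} (hK : s.H ≤ K) {g : s.G} (hg : g ∈ K) (S : Finset N) :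
    ∃ γ ∈ K, γ * g⁻¹ ∈ s.GG (s.P K hK) (s.D_le_P hK) ∧ ∃ π : N → N, ∀ c ∈ S,
      (∀ x, x ≠ π c → γ.v x c = 0) ∧ ∃ θ, s.f c * θ = θ ∧ θ * s.f (π c) = θ ∧
        θ * γ.v (π c) c = s.f c := by
  induction S using Finset.induction_on with
  | empty =>
    refine ⟨g, hg, ?_, id, fun c hc => absurd hc (Finset.notMem_empty _)⟩
    rw [mul_inv_cancel]
    exact Subgroup.one_mem _
  | insert c S hc ih =>
    obtain ⟨γ, hγ, hγ', π, hπ⟩ := ih
    obtain ⟨y, -, w, b1, b2, b3⟩ := s.unit_sum c univ (fun z => γ.w c z * γ.v z c)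
      (fun z => by rw [← mul_assoc, wl]) (fun z => by rw [mul_assoc, br]) (s.f c)
      (by rw [wv_ap, E_same, ff])
    obtain ⟨θ, hθ⟩ : ∃ θ, θ = w * γ.w c y := ⟨_, rfl⟩
    have t1 : s.f c * θ = θ := by rw [hθ, ← mul_assoc, b1]
    have t2 : θ * s.f y = θ := by rw [hθ, mul_assoc, wr]
    have t3 : θ * γ.v y c = s.f c := by rw [hθ, mul_assoc]; exact b3
    have t4 : ∀ x, -(γ.v x c * θ) ∈ s.P K hK := by
      intro x
      rw [hθ, ← mul_assoc]
      exact (s.P K hK).neg_mem (s.conj hK hγ rfl b1 b2 x y)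
    have t5 : ∀ x, s.f x * -(γ.v x c * θ) = -(γ.v x c * θ) := by
      intro x
      rw [mul_neg, ← mul_assoc, bl]
    have t6 : ∀ x, -(γ.v x c * θ) * s.f y = -(γ.v x c * θ) := by
      intro x
      rw [neg_mul, mul_assoc, t2]
    have hLK := s.has_col (K := K) y (fun x => -(γ.v x c * θ)) t5 t6 (univ.erase y)
      (Finset.notMem_erase _ _) (fun x hx =>
        s.has_P (hK := hK) (Finset.ne_of_mem_erase hx) (t5 x) (t6 x) (t4 x))
    have hLG := s.has_col (K := s.GG (s.P K hK) (s.D_le_P hK)) y (fun x => -(γ.v x c * θ)) t5 t6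
      (univ.erase y) (Finset.notMem_erase _ _) (fun x hx =>
        s.has_GG (Finset.ne_of_mem_erase hx) (t5 x) (t6 x) (t4 x))
    obtain ⟨L, hL, hLe⟩ := hLK
    obtain ⟨L', hL', hLe'⟩ := hLG
    have hLL : L' = L := CU.ext' (by rw [hLe', hLe])
    rw [hLL] at hL'
    have hap : ∀ a b, (L * γ).v a b = γ.v a b + if a ∈ univ.erase y then
        -(γ.v a c * θ) * γ.v y b else 0 := by
      intro a b
      rw [CU.mul_v, hLe]
      exact s.col_mul_ap y _ _ _ γ.v1 a b
    have hap1 : ∀ a b, a ≠ y → (L * γ).v a b = γ.v a b - γ.v a c * θ * γ.v y b := by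
      intro a b hay
      rw [hap, if_pos (Finset.mem_erase.2 ⟨hay, Finset.mem_univ _⟩), neg_mul, ← sub_eq_add_neg]
    have hap2 : ∀ b, (L * γ).v y b = γ.v y b := by
      intro b
      rw [hap, if_neg (Finset.notMem_erase _ _), add_zero]
    have hne : ∀ b ∈ S, y ≠ π b := by
      intro b hb hyb
      obtain ⟨p1, θb, p2, p3, p4⟩ := hπ b hb
      have hcb : c ≠ b := fun h => hc (by rw [h]; exact hb)
      have h0 := wv_ap γ c b
      rw [s.E_ne hcb, Finset.sum_eq_single (π b) (fun z _ hz => by rw [p1 z hz, mul_zero])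
        (fun h => absurd (Finset.mem_univ _) h)] at h0
      have h5 := s.inv_two (bl γ _ _) (br γ _ _) p2 p3 p4
      have h6 : γ.w c (π b) = 0 := by
        rw [← wr, ← h5, ← mul_assoc, h0, zero_mul]
      have h7 : s.f c = 0 := by
        rw [← t3, hθ, hyb, h6, mul_zero, zero_mul]
      exact s.f_ne c h7
    refine ⟨L * γ, K.mul_mem hL hγ, ?_, Function.update π c y, ?_⟩
    · rw [mul_assoc]
      exact Subgroup.mul_mem _ hL' hγ'
    · intro b hb
      by_cases hbc : b = c
      · subst hbc
        rw [Function.update_self]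
        refine ⟨?_, θ, t1, t2, ?_⟩
        · intro x hx
          rw [hap1 x b hx, mul_assoc, t3, br, sub_self]
        · rw [hap2, t3]
      · have hbS : b ∈ S := Finset.mem_of_mem_insert_of_ne hb hbc
        obtain ⟨p1, θb, p2, p3, p4⟩ := hπ b hbS
        have hyb : γ.v y b = 0 := p1 y (hne b hbS)
        have hcol : ∀ a, (L * γ).v a b = γ.v a b := by
          intro a
          by_cases ha : a = y
          · rw [ha, hap2]
          · rw [hap1 a b ha, hyb, mul_zero, sub_zero]
        rw [Function.update_of_ne hbc]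
        refine ⟨fun x hx => by rw [hcol, p1 x hx], θb, p2, p3, ?_⟩
        rw [hcol, p4]

end Su

end Vale.Agent.P183.H317
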