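import Vale.Agent.P183.H317.Elim
import Mathlib.Order.Hom.Basic
import Mathlib.Tactic.Group

/-!
The subrings above the diagonal are the groups above the diagonal group.
-/

set_option linter.all false

namespace Vale.Agent.P183.H317

open Matrix Finset

variable {A X N : Type} [Ring A] [Fintype X] [DecidableEq X] [Fintype N] [DecidableEq N]

namespace Su

variable (s : Su A X N)

/-- Every element of `K` has its entries in the ring of `K`. -/
theorem K_le [Finite A] {K : Subgroup s.G} (hK : s.H ≤ K) {g : s.G} (hg : g ∈ K) :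
    g ∈ s.GG (s.P K hK) (s.D_le_P hK) := by
  classical
  obtain ⟨γ, hγ, hγ', π, hπ⟩ := s.elim hK hg univ
  have p1 : ∀ c x, x ≠ π c → γ.v x c = 0 := fun c => (hπ c (Finset.mem_univ _)).1
  have hw : ∀ c, γ.w c (π c) * γ.v (π c) c = s.f c := by
    intro c
    have h0 := wv_ap γ c c
    rwa [Finset.sum_eq_single (π c) (fun z _ hz => by rw [p1 c z hz, mul_zero])
      (fun h => absurd (Finset.mem_univ _) h), E_same] at h0
  have hv : ∀ c, γ.v (π c) c * γ.w c (π c) = s.f (π c) := fun c =>
    s.inv_two (bl γ _ _) (br γ _ _) (wl γ _ _) (wr γ _ _) (hw c)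
  have hinj : Function.Injective π := by
    intro b c hbc
    by_contra hne
    have h0 := wv_ap γ b c
    rw [s.E_ne hne, Finset.sum_eq_single (π c) (fun z _ hz => by rw [p1 c z hz, mul_zero])
        (fun h => absurd (Finset.mem_univ _) h)] at h0
    have h1 : γ.w b (π c) = 0 := by
      rw [← wr, ← hv c, ← mul_assoc, h0, zero_mul]
    have h2 := hw b
    rw [hbc, h1, zero_mul] at h2
    exact s.f_ne b h2.symm
  have hbij : Function.Bijective π := Finite.injective_iff_bijective.1 hinj
  obtain ⟨PP, hPP⟩ : ∃ PP, PP = s.P K hK := ⟨_, rfl⟩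
  have hD : s.D ≤ PP := by rw [hPP]; exact s.D_le_P hK
  obtain ⟨Q, hQ⟩ : ∃ Q : X → X → Prop, Q = fun i l => ∃ r t : A, r ∈ PP ∧ t ∈ PP ∧
    s.e i * r = r ∧ r * s.e l = r ∧ s.e l * t = t ∧ t * s.e i = t ∧ r * t = s.e i ∧
    t * r = s.e l := ⟨_, rfl⟩
  have Qrefl : ∀ i, Q i i := by
    intro i
    rw [hQ]
    exact ⟨s.e i, s.e i, hD (s.e_D i), hD (s.e_D i), s.idem i, s.idem i, s.idem i, s.idem i,
      s.idem i, s.idem i⟩
  have Qtrans : ∀ i l m, Q i l → Q l m → Q i m := by
    intro i l m h1 h2
    rw [hQ] at h1 h2 ⊢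
    obtain ⟨r, t, a1, a2, a3, a4, a5, a6, a7, a8⟩ := h1
    obtain ⟨r', t', b1, b2, b3, b4, b5, b6, b7, b8⟩ := h2
    refine ⟨r * r', t' * t, PP.mul_mem a1 b1, PP.mul_mem b2 a2, ?_, ?_, ?_, ?_, ?_, ?_⟩
    · rw [← mul_assoc, a3]
    · rw [mul_assoc, b4]
    · rw [← mul_assoc, b5]
    · rw [mul_assoc, a6]
    · rw [mul_assoc, ← mul_assoc r', b7, a5, a7]
    · rw [mul_assoc, ← mul_assoc t, a8, b3, b8]
  have Qblock : ∀ b c, s.q b = s.q c → Q (s.q (π b)) (s.q (π c)) := by
    intro b c hbc
    have hf : s.f b = s.f c := by unfold f; rw [hbc]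
    rw [hQ]
    refine ⟨γ.v (π b) b * s.f b * γ.w c (π c), γ.v (π c) c * s.f c * γ.w b (π b), ?_, ?_, ?_, ?_,
      ?_, ?_, ?_, ?_⟩
    · rw [hPP]
      exact s.conj hK hγ hbc (s.ff b) (by rw [hf, ff]) _ _
    · rw [hPP]
      exact s.conj hK hγ hbc.symm (s.ff c) (by rw [hf, ff]) _ _
    · rw [← mul_assoc, ← mul_assoc]
      congr 2
      exact bl γ _ _
    · rw [mul_assoc]
      congr 1
      exact wr γ _ _
    · rw [← mul_assoc, ← mul_assoc]
      congr 2
      exact bl γ _ _
    · rw [mul_assoc]
      congr 1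
      exact wr γ _ _
    · have : γ.v (π b) b * s.f b * γ.w c (π c) * (γ.v (π c) c * s.f c * γ.w b (π b)) =
          γ.v (π b) b * (s.f b * (γ.w c (π c) * γ.v (π c) c) * s.f c) * γ.w b (π b) := by
        simp only [mul_assoc]
      rw [this, hw, hf, ff, ff, ← hf, br, hv]
      rfl
    · have : γ.v (π c) c * s.f c * γ.w b (π b) * (γ.v (π b) b * s.f b * γ.w c (π c)) =
          γ.v (π c) c * (s.f c * (γ.w b (π b) * γ.v (π b) b) * s.f b) * γ.w c (π c) := by
        simp only [mul_assoc]
      rw [this, hw, ← hf, ff, ff, hf, br, hv]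
      rfl
  have hcount : ∀ i : X, (univ.filter fun j => ∃ b, s.q b = j ∧ Q i (s.q (π b))) =
      univ.filter fun l => Q i l := by
    intro i
    refine s.dist _ _ ?_
    refine Finset.card_bijective π hbij ?_
    intro b
    simp only [Finset.mem_filter, Finset.mem_univ, true_and]
    constructor
    · rintro ⟨b', h1, h2⟩
      exact Qtrans _ _ _ h2 (Qblock b' b h1)
    · intro h
      exact ⟨b, rfl, h⟩
  have hQc : ∀ c, Q (s.q c) (s.q (π c)) := by
    intro c
    have h1 : s.q c ∈ univ.filter fun l => Q (s.q c) l := by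
      simp only [Finset.mem_filter, Finset.mem_univ, true_and]
      exact Qrefl _
    rw [← hcount] at h1
    simp only [Finset.mem_filter, Finset.mem_univ, true_and] at h1
    obtain ⟨b, h2, h3⟩ := h1
    exact Qtrans _ _ _ h3 (Qblock b c h2)
  have hγP : γ ∈ s.GG (s.P K hK) (s.D_le_P hK) := by
    intro x c
    by_cases hx : x = π c
    · subst hx
      have h1 := hQc c
      rw [hQ] at h1
      obtain ⟨r, t, a1, a2, a3, a4, a5, a6, a7, a8⟩ := h1
      have h2 : γ.v (π c) c = (γ.v (π c) c * r) * t := by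
        rw [mul_assoc, a7]
        exact (br γ _ _).symm
      rw [h2, ← hPP]
      refine PP.mul_mem (hD (s.corner_D (s.q (π c)) ?_ ?_)) a2
      · rw [← mul_assoc]
        congr 1
        exact bl γ _ _
      · rw [mul_assoc, a4]
    · rw [p1 c x hx]
      exact Subring.zero_mem _
  have : g = (γ * g⁻¹)⁻¹ * γ := by group
  rw [this]
  exact Subgroup.mul_mem _ (Subgroup.inv_mem _ hγ') hγP

theorem corner_mem {P : Subring A} (hP : s.D ≤ P) {c : N} {w : A} (b1 : s.f c * w = w)
    (b2 : w * s.f c = w) : w ∈ P := hP (s.corner_D (s.q c) b1 b2)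

theorem E_mem {P : Subring A} (hP : s.D ≤ P) (a b : N) : s.E a b ∈ P := by
  by_cases h : a = b
  · subst h
    rw [E_same]
    exact hP (s.e_D _)
  · rw [s.E_ne h]
    exact P.zero_mem

/-- The group of the ring of `K` lies in `K`. -/
theorem GG_le [Finite A] {K : Subgroup s.G} (hK : s.H ≤ K) (S : Finset N) :
    ∀ g : s.G, g ∈ s.GG (s.P K hK) (s.D_le_P hK) → (∀ b, b ∉ S → ∀ x, g.v x b = s.E x b) →
      g ∈ K := by
  induction S using Finset.induction_on with
  | empty =>
    intro g _ h
    have : g = 1 := by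
      apply CU.ext'
      ext x b
      exact h b (Finset.notMem_empty _) x
    rw [this]
    exact K.one_mem
  | insert c S hc ih =>
    intro g hg h
    have hgw : ∀ a b, g.w a b ∈ s.P K hK := fun a b => Subgroup.inv_mem _ hg a b
    have hwE : ∀ b, b ∉ insert c S → ∀ x, g.w x b = s.E x b := by
      intro b hb x
      calc g.w x b = (g.w * s.E) x b := by rw [g.w2]
        _ = ∑ z, g.w x z * s.E z b := Matrix.mul_apply
        _ = ∑ z, g.w x z * g.v z b := Finset.sum_congr rfl fun z _ => by rw [h b hb]
        _ = s.E x b := wv_ap g x b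
    obtain ⟨y, -, w, b1, b2, b3⟩ := s.unit_sum c univ (fun z => g.w c z * g.v z c)
      (fun z => by rw [← mul_assoc, wl]) (fun z => by rw [mul_assoc, br]) (s.f c)
      (by rw [wv_ap, E_same, ff])
    obtain ⟨θ, hθ⟩ : ∃ θ, θ = w * g.w c y := ⟨_, rfl⟩
    have t1 : s.f c * θ = θ := by rw [hθ, ← mul_assoc, b1]
    have t2 : θ * s.f y = θ := by rw [hθ, mul_assoc, wr]
    have t3 : θ * g.v y c = s.f c := by rw [hθ, mul_assoc]; exact b3
    have t4 : θ ∈ s.P K hK := by
      rw [hθ]
      exact Subring.mul_mem _ (s.corner_mem (s.D_le_P hK) b1 b2) (hgw c y)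
    have hy : y ∈ insert c S := by
      by_contra hy
      have hcy : c ≠ y := fun h => hy (by rw [← h]; exact Finset.mem_insert_self _ _)
      have h1 : θ = 0 := by rw [hθ, hwE y hy c, s.E_ne hcy, mul_zero]
      rw [h1, zero_mul] at t3
      exact s.f_ne c t3.symm
    have step : ∃ k ∈ K, k ∈ s.GG (s.P K hK) (s.D_le_P hK) ∧ (k * g).v c c = s.f c ∧
        ∀ b, b ∉ insert c S → ∀ x, (k * g).v x b = s.E x b := by
      by_cases hyc : y = c
      · subst hyc
        have t5 : g.v y y * θ = s.f y := s.inv_two (bl g _ _) (br g _ _) t1 t2 t3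
        have hEE : s.E * s.E = s.E := (inferInstance : Fact (s.E * s.E = s.E)).out
        have c1 : s.f y * (θ - s.f y) = θ - s.f y := by rw [mul_sub, t1, ff]
        have c2 : (θ - s.f y) * s.f y = θ - s.f y := by rw [sub_mul, t2, ff]
        have c3 : s.f y * (g.v y y - s.f y) = g.v y y - s.f y := by rw [mul_sub, bl, ff]
        have c4 : (g.v y y - s.f y) * s.f y = g.v y y - s.f y := by rw [sub_mul, br, ff]
        have c5 : (θ - s.f y) * (g.v y y - s.f y) = s.f y + s.f y - θ - g.v y y := by
          rw [sub_mul, mul_sub, mul_sub, t3, t2, bl, ff]; abel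
        have c6 : (g.v y y - s.f y) * (θ - s.f y) = s.f y + s.f y - θ - g.v y y := by
          rw [sub_mul, mul_sub, mul_sub, t5, t1, br, ff]; abel
        let k : s.G :=
          { v := s.E + single y y (θ - s.f y)
            w := s.E + single y y (g.v y y - s.f y)
            v1 := by rw [mul_add, hEE, s.E_single c1]
            v2 := by rw [add_mul, hEE, s.single_E c2]
            w1 := by rw [mul_add, hEE, s.E_single c3]
            w2 := by rw [add_mul, hEE, s.single_E c4]
            vw := by
              rw [mul_add, add_mul, add_mul, hEE, s.single_E c2, s.E_single c3,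
                Matrix.single_mul_single_same, c5, add_assoc, ← Matrix.single_add,
                ← Matrix.single_add]
              have : θ - s.f y + (g.v y y - s.f y + (s.f y + s.f y - θ - g.v y y)) = 0 := by abel
              rw [this, Matrix.single_zero, add_zero]
            wv := by
              rw [mul_add, add_mul, add_mul, hEE, s.single_E c4, s.E_single c1,
                Matrix.single_mul_single_same, c6, add_assoc, ← Matrix.single_add,
                ← Matrix.single_add]
              have : g.v y y - s.f y + (θ - s.f y + (s.f y + s.f y - θ - g.v y y)) = 0 := by abel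
              rw [this, Matrix.single_zero, add_zero] }
        have hkH : k ∈ s.H := by
          intro a b
          show (s.E + single y y (θ - s.f y)) a b ∈ s.D
          rw [Matrix.add_apply]
          refine s.D.add_mem (s.E_mem le_rfl a b) ?_
          rw [Matrix.single_apply]
          split_ifs
          · exact s.corner_mem le_rfl c1 c2
          · exact s.D.zero_mem
        have hap : ∀ a b, (k * g).v a b =
            g.v a b + if a = y then (θ - s.f y) * g.v y b else 0 := by
          intro a b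
          show ((s.E + single y y (θ - s.f y)) * g.v) a b = _
          rw [add_mul, g.v1, Matrix.add_apply, single_mul_ap]
        refine ⟨k, hK hkH, fun a b => s.D_le_P hK (hkH a b), ?_, ?_⟩
        · rw [hap, if_pos rfl, sub_mul, t3, bl]; abel
        · intro b hb x
          have hby : y ≠ b := fun h => hb (by rw [← h]; exact Finset.mem_insert_self _ _)
          rw [hap, h b hb, h b hb, s.E_ne hby, mul_zero, ite_self, add_zero]
      · have hcy : c ≠ y := Ne.symm hyc
        have c1 : s.f c * ((s.f c - g.v c c) * θ) = (s.f c - g.v c c) * θ := by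
          rw [← mul_assoc, mul_sub, bl, ff]
        have c2 : ((s.f c - g.v c c) * θ) * s.f y = (s.f c - g.v c c) * θ := by
          rw [mul_assoc, t2]
        have c3 : (s.f c - g.v c c) * θ ∈ s.P K hK :=
          Subring.mul_mem _ (Subring.sub_mem _ (s.D_le_P hK (s.e_D _)) (hg c c)) t4
        obtain ⟨k, hk, hke⟩ := s.has_P (hK := hK) hcy c1 c2 c3
        obtain ⟨k', hk', hke'⟩ := s.has_GG (hP := s.D_le_P hK) hcy c1 c2 c3
        have hkk : k' = k := CU.ext' (by rw [hke', hke])
        rw [hkk] at hk'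
        have hap : ∀ a b, (k * g).v a b =
            g.v a b + if a = c then (s.f c - g.v c c) * θ * g.v y b else 0 := by
          intro a b
          rw [CU.mul_v, hke, add_mul, g.v1, Matrix.add_apply, single_mul_ap]
        refine ⟨k, hk, hk', ?_, ?_⟩
        · rw [hap, if_pos rfl, mul_assoc, t3, sub_mul, ff, br]; abel
        · intro b hb x
          have hby : y ≠ b := fun h => hb (by rw [← h]; exact hy)
          rw [hap, h b hb, h b hb, s.E_ne hby, mul_zero, ite_self, add_zero]
    obtain ⟨k, hkK, hkG, hk1, hk2⟩ := step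
    have hG1 : k * g ∈ s.GG (s.P K hK) (s.D_le_P hK) := Subgroup.mul_mem _ hkG hg
    have u1 : ∀ x, s.f x * -((k * g).v x c) = -((k * g).v x c) := by
      intro x; rw [mul_neg, bl]
    have u2 : ∀ x, -((k * g).v x c) * s.f c = -((k * g).v x c) := by
      intro x; rw [neg_mul, br]
    have u3 : ∀ x, -((k * g).v x c) ∈ s.P K hK := fun x => Subring.neg_mem _ (hG1 x c)
    obtain ⟨L, hL, hLe⟩ := s.has_col (K := K) c (fun x => -((k * g).v x c)) u1 u2 (univ.erase c)
      (Finset.notMem_erase _ _) (fun x hx =>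
        s.has_P (hK := hK) (Finset.ne_of_mem_erase hx) (u1 x) (u2 x) (u3 x))
    obtain ⟨L', hL', hLe'⟩ := s.has_col (K := s.GG (s.P K hK) (s.D_le_P hK)) c
      (fun x => -((k * g).v x c)) u1 u2 (univ.erase c) (Finset.notMem_erase _ _) (fun x hx =>
        s.has_GG (Finset.ne_of_mem_erase hx) (u1 x) (u2 x) (u3 x))
    have hLL : L' = L := CU.ext' (by rw [hLe', hLe])
    rw [hLL] at hL'
    have hap : ∀ a b, (L * (k * g)).v a b = (k * g).v a b +
        if a ∈ univ.erase c then -((k * g).v a c) * (k * g).v c b else 0 := by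
      intro a b
      rw [CU.mul_v L, hLe]
      exact s.col_mul_ap c _ _ _ (k * g).v1 a b
    have hfin := ih (L * (k * g)) (Subgroup.mul_mem _ hL' hG1) (by
      intro b hb x
      by_cases hbc : b = c
      · subst hbc
        by_cases hx : x = b
        · subst hx
          rw [hap, if_neg (Finset.notMem_erase _ _), add_zero, hk1, E_same]
        · rw [hap, if_pos (Finset.mem_erase.2 ⟨hx, Finset.mem_univ _⟩), hk1, neg_mul, br,
            s.E_ne hx, add_neg_cancel]
      · have hb' : b ∉ insert c S := by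
          rw [Finset.mem_insert]
          rintro (h1 | h1)
          · exact hbc h1
          · exact hb h1
        rw [hap, hk2 b hb' c, s.E_ne (Ne.symm hbc), mul_zero, ite_self, add_zero, hk2 b hb'])
    have e : g = k⁻¹ * (L⁻¹ * (L * (k * g))) := by group
    rw [e]
    exact K.mul_mem (K.inv_mem hkK) (K.mul_mem (K.inv_mem hL) hfin)

/-- `GG` reflects the order. -/
theorem GG_le_iff [Finite A] {P P' : Subring A} (hP : s.D ≤ P) (hP' : s.D ≤ P') :
    s.GG P hP ≤ s.GG P' hP' ↔ P ≤ P' := by
  constructor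
  · intro h r hr
    rw [s.dec r]
    refine P'.sum_mem fun x _ => P'.sum_mem fun y _ => ?_
    obtain ⟨c, -⟩ : ∃ c, s.q c = x ∧ True := by
      -- any index
      obtain ⟨a⟩ : Nonempty N := by
        by_contra hN
        rw [not_nonempty_iff] at hN
        have h1 := s.dist ∅ {x} (by simp)
        exact absurd h1.symm (Finset.singleton_ne_empty x)
      obtain ⟨c, hc, -⟩ := s.three x a a
      exact ⟨c, hc, trivial⟩
    obtain ⟨a, ha, -⟩ := s.three x c c
    obtain ⟨b, hb, hba, -⟩ := s.three y a a
    have hfa : s.f a = s.e x := by unfold f; rw [ha]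
    have hfb : s.f b = s.e y := by unfold f; rw [hb]
    have c1 : s.f a * (s.e x * r * s.e y) = s.e x * r * s.e y := by
      rw [hfa, ← mul_assoc, ← mul_assoc, s.idem]
    have c2 : (s.e x * r * s.e y) * s.f b = s.e x * r * s.e y := by
      rw [hfb, mul_assoc, s.idem]
    have c3 : s.e x * r * s.e y ∈ P := P.mul_mem (P.mul_mem (hP (s.e_D x)) hr) (hP (s.e_D y))
    obtain ⟨k, hk, hke⟩ := s.has_GG (hP := hP) (Ne.symm hba) c1 c2 c3
    have h2 := h hk a b
    rw [hke, Matrix.add_apply, s.E_ne (Ne.symm hba), zero_add, Matrix.single_apply_same] at h2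
    exact h2
  · intro h g hg a b
    exact h (hg a b)

/-- **The lattice of the subrings above the diagonal is the interval above the diagonal group.** -/
theorem iso [Finite A] :
    Nonempty ({P : Subring A // s.D ≤ P} ≃o {S : Subgroup s.G // s.H ≤ S}) := by
  let F : {P : Subring A // s.D ≤ P} → {S : Subgroup s.G // s.H ≤ S} := fun P =>
    ⟨s.GG P.1 P.2, fun g hg a b => P.2 (hg a b)⟩
  have hF : ∀ P P', F P ≤ F P' ↔ P ≤ P' := fun P P' => s.GG_le_iff P.2 P'.2
  have hs : Function.Surjective F := by
    rintro ⟨K, hK⟩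
    refine ⟨⟨s.P K hK, s.D_le_P hK⟩, Subtype.ext (le_antisymm ?_ ?_)⟩
    · intro g hg
      exact s.GG_le hK univ g hg fun b hb => absurd (Finset.mem_univ b) hb
    · intro g hg
      exact s.K_le hK hg
  exact ⟨RelIso.ofSurjective (OrderEmbedding.ofMapLEIff F hF) hs⟩

end Su

end Vale.Agent.P183.H317
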