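import Mathlib.Algebra.Ring.Subring.Basic
import Mathlib.Algebra.BigOperators.Ring.Finset
import Mathlib.Data.Fintype.Card
import Mathlib.Data.Fintype.Sets
import Mathlib.Data.Set.Finite.Lattice
import Mathlib.Tactic.NoncommRing
import Mathlib.Tactic.Abel
import Mathlib.Tactic.Ring
import Mathlib.Tactic.Positivity
import Mathlib.Data.Fintype.Pigeonhole
import Mathlib.Data.Fintype.Powerset

/-!
Refining complete orthogonal idempotents of a finite ring to primitive ones.
-/

set_option linter.all false

namespace Vale.Agent.P183.H317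

open Finset

variable {A : Type} [Ring A] [Finite A]

/-- In a finite ring, some power of an element is idempotent. -/
theorem exists_idem_pow (r : A) : ∃ n, 0 < n ∧ r ^ n * r ^ n = r ^ n := by
  obtain ⟨i, j, hij, h⟩ : ∃ i j : ℕ, i < j ∧ r ^ (i + 1) = r ^ (j + 1) := by
    obtain ⟨i, j, hne, h⟩ := Finite.exists_ne_map_eq_of_infinite (fun n : ℕ => r ^ (n + 1))
    rcases lt_or_gt_of_ne hne with h1 | h1
    · exact ⟨i, j, h1, h⟩
    · exact ⟨j, i, h1, h.symm⟩
  obtain ⟨p, rfl⟩ : ∃ p, j = i + (p + 1) := ⟨j - i - 1, by omega⟩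
  -- r^(m) = r^(m + k (p+1)) for m ≥ i+1
  have h1 : ∀ m, i + 1 ≤ m → r ^ m = r ^ (m + (p + 1)) := by
    intro m hm
    obtain ⟨l, rfl⟩ : ∃ l, m = i + 1 + l := ⟨m - (i + 1), by omega⟩
    have e : i + 1 + l + (p + 1) = (i + (p + 1) + 1) + l := by omega
    rw [e, pow_add r (i + 1) l, h, ← pow_add]
  have h2 : ∀ k m, i + 1 ≤ m → r ^ m = r ^ (m + k * (p + 1)) := by
    intro k
    induction k with
    | zero => intro m _; rw [Nat.zero_mul, Nat.add_zero]
    | succ k ih =>
      intro m hm
      rw [ih m hm, h1 (m + k * (p + 1)) (by omega)]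
      congr 1
      ring
  refine ⟨(i + 1) * (p + 1), by positivity, ?_⟩
  rw [← pow_add]
  have h3 := h2 (i + 1) ((i + 1) * (p + 1)) (Nat.le_mul_of_pos_right _ (by omega))
  exact h3.symm

/-- Primitive idempotents of a finite ring are local. -/
theorem local_of_prim {e : A} (he : e * e = e)
    (hp : ∀ g, e * g = g → g * e = g → g * g = g → g = 0 ∨ g = e) (r : A) (h1 : e * r = r)
    (h2 : r * e = r) : (∃ w, w * r = e) ∨ (∃ w, w * (e - r) = e) := by
  obtain ⟨n, hn, h⟩ := exists_idem_pow r
  obtain ⟨m, rfl⟩ : ∃ m, n = m + 1 := ⟨n - 1, by omega⟩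
  rcases hp (r ^ (m + 1)) (by rw [pow_succ', ← mul_assoc, h1]) (by rw [pow_succ, mul_assoc, h2]) h
    with h3 | h3
  · right
    -- geometric series
    refine ⟨∑ i ∈ range (m + 1), e * r ^ i, ?_⟩
    have key : ∀ k, (∑ i ∈ range k, e * r ^ i) * (e - r) = e - e * r ^ k := by
      intro k
      induction k with
      | zero => rw [Finset.sum_range_zero, zero_mul, pow_zero, mul_one, sub_self]
      | succ k ih =>
        rw [Finset.sum_range_succ, add_mul, ih]
        have a1 : e * r ^ k * e = e * r ^ k := by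
          cases k with
          | zero => rw [pow_zero, mul_one, he]
          | succ k => rw [pow_succ, mul_assoc, mul_assoc, h2]
        rw [mul_sub, a1, pow_succ, mul_assoc]
        abel
    rw [key, h3, mul_zero, sub_zero]
  · left
    exact ⟨r ^ m, by rw [← pow_succ, h3]⟩

/-- a finite set of orthogonal idempotents refining the family `e` -/
structure Refines {X : Type} (e : X → A) (F : Finset A) : Prop where
  idem : ∀ g ∈ F, g * g = g
  ne : ∀ g ∈ F, g ≠ 0
  orth : ∀ g ∈ F, ∀ h ∈ F, g ≠ h → g * h = 0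
  tot : ∑ g ∈ F, g = 1
  sub : ∀ g ∈ F, ∃ x, e x * g = g ∧ g * e x = g

/-- Maximal refinements are primitive. -/
theorem exists_prim {X : Type} [Fintype X] (e : X → A) (h1 : ∀ x, e x * e x = e x)
    (h2 : ∀ x y, x ≠ y → e x * e y = 0) (h3 : ∑ x, e x = 1) :
    ∃ F : Finset A, Refines e F ∧ ∀ f ∈ F, ∀ g, f * g = g → g * f = g → g * g = g →
      g = 0 ∨ g = f := by
  classical
  have := Fintype.ofFinite A
  -- some refinement
  have hex : ∃ F : Finset A, Refines e F := by
    refine ⟨(univ.image e).erase 0, ?_, ?_, ?_, ?_, ?_⟩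
    · intro g hg
      obtain ⟨x, -, rfl⟩ := Finset.mem_image.1 (Finset.mem_of_mem_erase hg)
      exact h1 x
    · intro g hg
      exact Finset.ne_of_mem_erase hg
    · intro g hg h hh hgh
      obtain ⟨x, -, rfl⟩ := Finset.mem_image.1 (Finset.mem_of_mem_erase hg)
      obtain ⟨y, -, rfl⟩ := Finset.mem_image.1 (Finset.mem_of_mem_erase hh)
      exact h2 x y (fun h => hgh (by rw [h]))
    · rw [← h3]
      -- sum over image without zero
      rw [← Finset.sum_filter_ne_zero (s := (univ : Finset X))]
      have : (univ.image e).erase 0 = (univ.filter fun x => e x ≠ 0).image e := by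
        ext g
        simp only [Finset.mem_erase, Finset.mem_image, Finset.mem_univ, true_and,
          Finset.mem_filter]
        constructor
        · rintro ⟨h0, x, rfl⟩
          exact ⟨x, h0, rfl⟩
        · rintro ⟨x, h0, rfl⟩
          exact ⟨h0, x, rfl⟩
      rw [this, Finset.sum_image]
      intro x hx y hy hxy
      by_contra hne
      have h4 := h2 x y hne
      rw [← hxy, h1] at h4
      exact (Finset.mem_filter.1 hx).2 h4
    · intro g hg
      obtain ⟨x, -, rfl⟩ := Finset.mem_image.1 (Finset.mem_of_mem_erase hg)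
      exact ⟨x, h1 x, h1 x⟩
  -- a refinement of maximal cardinality
  obtain ⟨F, hF', hmax'⟩ := Finset.exists_max_image (univ.filter fun F : Finset A => Refines e F)
    Finset.card (by
      obtain ⟨F, hF⟩ := hex
      exact ⟨F, Finset.mem_filter.2 ⟨Finset.mem_univ _, hF⟩⟩)
  have hF : Refines e F := (Finset.mem_filter.1 hF').2
  have hmax : ∀ F', Refines e F' → F'.card ≤ F.card := fun F' h =>
    hmax' F' (Finset.mem_filter.2 ⟨Finset.mem_univ _, h⟩)
  refine ⟨F, hF, ?_⟩
  intro f hf g g1 g2 g3
  by_contra hcon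
  push Not at hcon
  obtain ⟨g0, gf⟩ := hcon
  -- replace `f` by `g` and `f - g`
  have k0 : f - g ≠ 0 := fun h => gf (sub_eq_zero.1 h).symm
  have hff := hF.idem f hf
  have k1 : (f - g) * (f - g) = f - g := by
    rw [sub_mul, mul_sub, mul_sub, hff, g1, g2, g3]; abel
  have k2 : g * (f - g) = 0 := by rw [mul_sub, g2, g3, sub_self]
  have k3 : (f - g) * g = 0 := by rw [sub_mul, g1, g3, sub_self]
  have k4 : ∀ h ∈ F, h ≠ f → g * h = 0 ∧ h * g = 0 := by
    intro h hh hne
    constructor
    · rw [← g2, mul_assoc, hF.orth f hf h hh (Ne.symm hne), mul_zero]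
    · rw [← g1, ← mul_assoc, hF.orth h hh f hf hne, zero_mul]
  have gnF : g ∉ F.erase f := by
    intro h
    have := (k4 g (Finset.mem_of_mem_erase h) (Finset.ne_of_mem_erase h)).1
    rw [g3] at this
    exact g0 this
  have fgn : f - g ∉ F.erase f := by
    intro h
    have h5 := (k4 _ (Finset.mem_of_mem_erase h) (Finset.ne_of_mem_erase h)).1
    have h6 := hF.orth f hf _ (Finset.mem_of_mem_erase h) (Ne.symm (Finset.ne_of_mem_erase h))
    rw [mul_sub, hff, g1] at h6
    exact k0 h6
  have gfg : g ≠ f - g := by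
    intro h
    rw [← h, g3] at k2
    exact g0 k2
  have gins : g ∉ insert (f - g) (F.erase f) := by
    rw [Finset.mem_insert]
    rintro (h | h)
    · exact gfg h
    · exact gnF h
  have hR : Refines e (insert g (insert (f - g) (F.erase f))) := by
    have mem : ∀ h, h ∈ insert g (insert (f - g) (F.erase f)) → h = g ∨ h = f - g ∨
        (h ∈ F ∧ h ≠ f) := by
      intro h hh
      rw [Finset.mem_insert, Finset.mem_insert] at hh
      rcases hh with h | h | h
      · exact Or.inl h
      · exact Or.inr (Or.inl h)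
      · exact Or.inr (Or.inr ⟨Finset.mem_of_mem_erase h, Finset.ne_of_mem_erase h⟩)
    have k5 : ∀ h ∈ F, h ≠ f → (f - g) * h = 0 ∧ h * (f - g) = 0 := by
      intro h hh hne
      obtain ⟨a1, a2⟩ := k4 h hh hne
      constructor
      · rw [sub_mul, a1, hF.orth f hf h hh (Ne.symm hne), sub_zero]
      · rw [mul_sub, a2, hF.orth h hh f hf hne, sub_zero]
    refine ⟨?_, ?_, ?_, ?_, ?_⟩
    · intro h hh
      rcases mem h hh with rfl | rfl | h
      · exact g3
      · exact k1
      · exact hF.idem _ h.1
    · intro h hh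
      rcases mem h hh with rfl | rfl | h
      · exact g0
      · exact k0
      · exact hF.ne _ h.1
    · intro h hh l hl hne
      rcases mem h hh with rfl | rfl | h1
      · rcases mem l hl with rfl | rfl | h2
        · exact absurd rfl hne
        · exact k2
        · exact (k4 l h2.1 h2.2).1
      · rcases mem l hl with rfl | rfl | h2
        · exact k3
        · exact absurd rfl hne
        · exact (k5 l h2.1 h2.2).1
      · rcases mem l hl with rfl | rfl | h2
        · exact (k4 h h1.1 h1.2).2
        · exact (k5 h h1.1 h1.2).2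
        · exact hF.orth _ h1.1 _ h2.1 hne
    · rw [Finset.sum_insert gins, Finset.sum_insert fgn, ← add_assoc]
      have : g + (f - g) = f := by abel
      rw [this, Finset.add_sum_erase F (fun x => x) hf, hF.tot]
    · obtain ⟨x, x1, x2⟩ := hF.sub f hf
      have xg1 : e x * g = g := by rw [← g1, ← mul_assoc, x1]
      have xg2 : g * e x = g := by rw [← g2, mul_assoc, x2]
      intro h hh
      rcases mem h hh with rfl | rfl | h
      · exact ⟨x, xg1, xg2⟩
      · exact ⟨x, by rw [mul_sub, x1, xg1], by rw [sub_mul, x2, xg2]⟩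
      · exact hF.sub _ h.1
  have hcard : F.card < (insert g (insert (f - g) (F.erase f))).card := by
    rw [Finset.card_insert_of_notMem gins, Finset.card_insert_of_notMem fgn,
      Finset.card_erase_of_mem hf]
    have : 0 < F.card := Finset.card_pos.2 ⟨f, hf⟩
    omega
  exact absurd (hmax _ hR) (not_le_of_gt hcard)

end Vale.Agent.P183.H317
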