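import Vale.Agent.P183.H317.Iso
import Vale.Agent.P183.H317.Prim
import Vale.Agent.P183.H996.Dual
import Mathlib.Algebra.Order.BigOperators.Ring.Finset
import Mathlib.Combinatorics.Colex

/-!
Subrings above the Peirce diagonal of a finite ring: the lattice is an interval in the subgroup
lattice of a finite group.
-/

set_option linter.all false

namespace Vale.Agent.P183.H317

open Matrix Finset Vale.Agent.P183.H996

/-- the number of indices of a block -/
noncomputable def sz (A X : Type) [Fintype A] [Fintype X] (x : X) : ℕ :=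
  (Fintype.card A + 2) * 2 ^ (Fintype.equivFin X x : ℕ)

/-- the indices -/
abbrev Ix (A X : Type) [Fintype A] [Fintype X] : Type := Σ x : X, Fin (sz A X x)

theorem card_le_sz (A X : Type) [Fintype A] [Fintype X] (x : X) :
    Fintype.card A + 2 ≤ sz A X x := Nat.le_mul_of_pos_right _ (by positivity)

/-- the indices of a block, as a finite set -/
noncomputable def blk {A X : Type} [Fintype A] [Fintype X] [DecidableEq X] (x : X) : Finset (Ix A X) :=
  univ.map ⟨Sigma.mk x, sigma_mk_injective⟩

theorem card_blk {A X : Type} [Fintype A] [Fintype X] [DecidableEq X] (x : X) :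
    (blk x : Finset (Ix A X)).card = sz A X x := by
  unfold blk
  rw [Finset.card_map, Finset.card_univ, Fintype.card_fin]

theorem mem_blk {A X : Type} [Fintype A] [Fintype X] [DecidableEq X] {x : X} {c : Ix A X} :
    c ∈ blk x ↔ c.1 = x := by
  unfold blk
  rw [Finset.mem_map]
  constructor
  · rintro ⟨k, -, rfl⟩
    rfl
  · intro h
    subst h
    exact ⟨c.2, Finset.mem_univ _, rfl⟩

/-- the frame of primitive idempotents -/
noncomputable def mkSu {A X : Type} [Ring A] [Fintype A] [Fintype X] [DecidableEq X] (e : X → A)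
    (idem : ∀ x, e x * e x = e x) (orth : ∀ x y, x ≠ y → e x * e y = 0) (tot : ∑ x, e x = 1)
    (ne : ∀ x, e x ≠ 0)
    (loc : ∀ x r, e x * r = r → r * e x = r →
      (∃ w, w * r = e x) ∨ (∃ w, w * (e x - r) = e x)) : Su A X (Ix A X) where
  e := e
  q := Sigma.fst
  idem := idem
  orth := orth
  tot := tot
  ne := ne
  loc := loc
  three := by
    classical
    intro x a b
    have h1 : ({a, b} : Finset (Ix A X)).card < (blk x : Finset (Ix A X)).card := by
      have h2 := card_le_sz A X x
      have h3 : 0 < Fintype.card A := Fintype.card_pos_iff.2 ⟨0⟩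
      rw [card_blk]
      have h4 : ({a, b} : Finset (Ix A X)).card ≤ 2 := Finset.card_le_two
      omega
    obtain ⟨c, hc, hn⟩ := Finset.exists_mem_notMem_of_card_lt_card h1
    refine ⟨c, (mem_blk (A := A)).1 hc, ?_, ?_⟩
    · rintro rfl
      exact hn (by simp)
    · rintro rfl
      exact hn (by simp)
  pig := by
    classical
    intro c f
    have h1 : (univ : Finset A).card < ((blk c.1 : Finset (Ix A X)).erase c).card := by
      rw [Finset.card_erase_of_mem ((mem_blk (A := A)).2 rfl), card_blk, Finset.card_univ]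
      have h2 := card_le_sz A X c.1
      omega
    obtain ⟨a, ha, b, hb, hab, h⟩ := Finset.exists_ne_map_eq_of_card_lt_of_maps_to h1
      (f := f) (fun _ _ => Finset.mem_univ _)
    exact ⟨a, b, hab, Finset.ne_of_mem_erase ha, Finset.ne_of_mem_erase hb,
      mem_blk.1 (Finset.mem_of_mem_erase ha), mem_blk.1 (Finset.mem_of_mem_erase hb), h⟩
  dist := by
    classical
    intro S T h
    have key : ∀ U : Finset X, #{b : Ix A X | b.1 ∈ U} =
        (Fintype.card A + 2) * ∑ x ∈ U, 2 ^ (Fintype.equivFin X x : ℕ) := by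
      intro U
      have h1 : (univ.filter fun b : Ix A X => b.1 ∈ U) = U.biUnion fun x => blk x := by
        ext b
        simp only [Finset.mem_filter, Finset.mem_univ, true_and, Finset.mem_biUnion, mem_blk]
        constructor
        · intro h; exact ⟨b.1, h, rfl⟩
        · rintro ⟨x, hx, h⟩; rw [h]; exact hx
      rw [h1, Finset.card_biUnion]
      · rw [Finset.mul_sum]
        exact Finset.sum_congr rfl fun x _ => card_blk x
      · intro x _ y _ hxy
        show Disjoint _ _
        rw [Finset.disjoint_left]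
        intro b hb hb'
        exact hxy (by rw [← mem_blk.1 hb, mem_blk.1 hb'])
    rw [key, key] at h
    have h2 := Nat.eq_of_mul_eq_mul_left (by omega) h
    let i : X ↪ ℕ := ⟨fun x => (Fintype.equivFin X x : ℕ), fun x y hxy =>
      (Fintype.equivFin X).injective (Fin.ext hxy)⟩
    have h3 : ∀ U : Finset X, ∑ x ∈ U, 2 ^ (Fintype.equivFin X x : ℕ) = ∑ k ∈ U.map i, 2 ^ k := by
      intro U
      rw [Finset.sum_map]
      rfl
    rw [h3, h3] at h2
    exact Finset.map_injective i (Finset.geomSum_injective (le_refl 2) h2)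

/-- upper intervals of a group interval -/
theorem gi_ici {L : Type} [PartialOrder L] (h : GroupInterval L) (a : L) :
    GroupInterval {b : L // a ≤ b} := by
  obtain ⟨G, i1, i2, H, ⟨Φ⟩⟩ := h
  refine ⟨G, i1, i2, (Φ a).1, ⟨?_⟩⟩
  exact
    { toFun := fun b => ⟨(Φ b.1).1, Φ.monotone b.2⟩
      invFun := fun S => ⟨Φ.symm ⟨S.1, le_trans (Φ a).2 S.2⟩, by
        rw [OrderIso.le_symm_apply]
        exact S.2⟩
      left_inv := fun b => Subtype.ext (Φ.symm_apply_apply b.1)
      right_inv := fun S => Subtype.ext (by
        show (Φ (Φ.symm ⟨S.1, le_trans (Φ a).2 S.2⟩)).1 = S.1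
        rw [Φ.apply_symm_apply])
      map_rel_iff' := by
        intro b c
        exact Φ.le_iff_le }

/-- **Main theorem.** For every finite ring `A` and all complete orthogonal idempotents `e x` the
lattice of the subrings of `A` which contain all the corners `e x * A * e x` is an interval in the
subgroup lattice of a finite group. -/
theorem peirce {A X : Type} [Ring A] [Finite A] [Fintype X] (e : X → A)
    (idem : ∀ x, e x * e x = e x) (orth : ∀ x y, x ≠ y → e x * e y = 0) (tot : ∑ x, e x = 1) :
    GroupInterval {P : Subring A // ∀ x a, e x * a * e x ∈ P} := by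
  classical
  have := Fintype.ofFinite A
  obtain ⟨F, hF, hprim⟩ := exists_prim e idem orth tot
  let s : Su A {g // g ∈ F} (Ix A {g // g ∈ F}) := mkSu (fun g => g.1)
    (fun g => hF.idem _ g.2) (fun g h hgh => hF.orth _ g.2 _ h.2 (fun h => hgh (Subtype.ext h)))
    (by rw [← hF.tot]; exact Finset.sum_coe_sort F (fun x => x)) (fun g => hF.ne _ g.2)
    (fun g r h1 h2 => local_of_prim (hF.idem _ g.2) (hprim g.1 g.2) r h1 h2)
  have he : ∀ g : {g // g ∈ F}, s.e g = g.1 := fun _ => rfl
  obtain ⟨Φ⟩ := s.iso
  have hL : GroupInterval {P : Subring A // s.D ≤ P} := ⟨s.G, inferInstance, inferInstance, s.H, ⟨Φ⟩⟩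
  let R0 : Subring A := Subring.closure {r | ∃ x a, r = e x * a * e x}
  have hD : s.D ≤ R0 := by
    intro r hr
    rw [s.dec r]
    refine R0.sum_mem fun g _ => R0.sum_mem fun h _ => ?_
    by_cases hgh : g = h
    · subst hgh
      obtain ⟨x, x1, x2⟩ := hF.sub g.1 g.2
      refine Subring.subset_closure ⟨x, s.e g * r * s.e g, ?_⟩
      have e1 : e x * (s.e g * r * s.e g) * e x = (e x * g.1) * r * (g.1 * e x) := by
        rw [he]; simp only [mul_assoc]
      rw [e1, x1, x2, he]
    · rw [hr _ _ hgh]
      exact R0.zero_mem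
  have hR : ∀ P : Subring A, (∀ x a, e x * a * e x ∈ P) ↔ R0 ≤ P := by
    intro P
    constructor
    · intro h
      refine Subring.closure_le.2 ?_
      rintro _ ⟨x, a, rfl⟩
      exact h x a
    · intro h x a
      exact h (Subring.subset_closure ⟨x, a, rfl⟩)
  refine GroupInterval.of_iso ?_ (gi_ici hL ⟨R0, hD⟩)
  exact
    { toFun := fun P => ⟨⟨P.1, hD.trans ((hR P.1).1 P.2)⟩, (hR P.1).1 P.2⟩
      invFun := fun P => ⟨P.1.1, (hR P.1.1).2 P.2⟩
      left_inv := fun _ => rfl
      right_inv := fun _ => rfl
      map_rel_iff' := Iff.rfl }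

end Vale.Agent.P183.H317
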