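import Vale.Agent.P183.H317.CU

/-!
The frame: a ring with local complete orthogonal idempotents and blocks of indices.
-/

set_option linter.all false

namespace Vale.Agent.P183.H317

open Matrix Finset

/-- the data of the construction -/
structure Su (A X N : Type) [Ring A] [Fintype X] [DecidableEq X] [Fintype N] [DecidableEq N] where
  e : X → A
  q : N → X
  idem : ∀ x, e x * e x = e x
  orth : ∀ x y, x ≠ y → e x * e y = 0
  tot : ∑ x, e x = 1
  ne : ∀ x, e x ≠ 0
  loc : ∀ x r, e x * r = r → r * e x = r → (∃ w, w * r = e x) ∨ (∃ w, w * (e x - r) = e x)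
  three : ∀ (x : X) (a b : N), ∃ c, q c = x ∧ c ≠ a ∧ c ≠ b
  pig : ∀ (c : N) (f : N → A), ∃ a b, a ≠ b ∧ a ≠ c ∧ b ≠ c ∧ q a = q c ∧ q b = q c ∧ f a = f b
  dist : ∀ S T : Finset X, #{b | q b ∈ S} = #{b | q b ∈ T} → S = T

variable {A X N : Type} [Ring A] [Fintype X] [DecidableEq X] [Fintype N] [DecidableEq N]

theorem mul_single_ap (M : Matrix N N A) (a c : N) (r : A) (x y : N) :
    (M * single a c r) x y = if y = c then M x a * r else 0 := by
  by_cases h : y = c
  · subst h
    rw [if_pos rfl, Matrix.mul_apply, Finset.sum_eq_single a]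
    · simp
    · intro k _ hk
      rw [Matrix.single_apply_of_ne, mul_zero]
      rintro ⟨rfl, _⟩
      exact hk rfl
    · intro h; exact absurd (Finset.mem_univ _) h
  · rw [if_neg h, Matrix.mul_apply]
    refine Finset.sum_eq_zero fun k _ => ?_
    rw [Matrix.single_apply_of_ne, mul_zero]
    rintro ⟨_, rfl⟩
    exact h rfl

theorem single_mul_ap (M : Matrix N N A) (a c : N) (r : A) (x y : N) :
    (single a c r * M) x y = if x = a then r * M c y else 0 := by
  by_cases h : x = a
  · subst h
    rw [if_pos rfl, Matrix.mul_apply, Finset.sum_eq_single c]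
    · simp
    · intro k _ hk
      rw [Matrix.single_apply_of_ne, zero_mul]
      rintro ⟨_, rfl⟩
      exact hk rfl
    · intro h; exact absurd (Finset.mem_univ _) h
  · rw [if_neg h, Matrix.mul_apply]
    refine Finset.sum_eq_zero fun k _ => ?_
    rw [Matrix.single_apply_of_ne, zero_mul]
    rintro ⟨rfl, _⟩
    exact h rfl

namespace Su

variable (s : Su A X N)

/-- the idempotent of an index -/
def f (a : N) : A := s.e (s.q a)

theorem ff (a : N) : s.f a * s.f a = s.f a := s.idem _

theorem f_orth {a b : N} (h : s.q a ≠ s.q b) : s.f a * s.f b = 0 := s.orth _ _ h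

/-- the identity of the corner -/
def E : Matrix N N A := Matrix.diagonal s.f

instance : Fact (s.E * s.E = s.E) := ⟨by
  unfold E
  rw [Matrix.diagonal_mul_diagonal]
  congr 1
  funext a
  exact s.ff a⟩

theorem E_mul_ap (M : Matrix N N A) (a b : N) : (s.E * M) a b = s.f a * M a b :=
  Matrix.diagonal_mul _ _ _ _

theorem mul_E_ap (M : Matrix N N A) (a b : N) : (M * s.E) a b = M a b * s.f b :=
  Matrix.mul_diagonal _ _ _ _

theorem E_same (a : N) : s.E a a = s.f a := Matrix.diagonal_apply_eq _ _

theorem E_ne {a b : N} (h : a ≠ b) : s.E a b = 0 := Matrix.diagonal_apply_ne _ h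

theorem E_single {a b : N} {r : A} (h : s.f a * r = r) : s.E * single a b r = single a b r := by
  ext x y
  rw [E_mul_ap, Matrix.single_apply]
  split_ifs with h1
  · rw [← h1.1, h]
  · rw [mul_zero]

theorem single_E {a b : N} {r : A} (h : r * s.f b = r) : single a b r * s.E = single a b r := by
  ext x y
  rw [mul_E_ap, Matrix.single_apply]
  split_ifs with h1
  · rw [← h1.2, h]
  · rw [zero_mul]

/-- the group -/
abbrev G : Type := CU (Matrix N N A) s.E

theorem bl {s : Su A X N} (g : s.G) (a b : N) : s.f a * g.v a b = g.v a b := by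
  rw [← E_mul_ap, g.v1]

theorem br {s : Su A X N} (g : s.G) (a b : N) : g.v a b * s.f b = g.v a b := by
  rw [← mul_E_ap, g.v2]

theorem wl {s : Su A X N} (g : s.G) (a b : N) : s.f a * g.w a b = g.w a b := by
  rw [← E_mul_ap, g.w1]

theorem wr {s : Su A X N} (g : s.G) (a b : N) : g.w a b * s.f b = g.w a b := by
  rw [← mul_E_ap, g.w2]

/-- the sum of the diagonal corners -/
def D : Subring A where
  carrier := {r | ∀ x y, x ≠ y → s.e x * r * s.e y = 0}
  mul_mem' := by
    intro r t hr ht x y hxy
    have h1 : s.e x * (r * t) * s.e y = ∑ z, (s.e x * r * s.e z) * (s.e z * t * s.e y) := by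
      calc s.e x * (r * t) * s.e y = s.e x * r * (∑ z, s.e z) * (t * s.e y) := by
            rw [s.tot]; noncomm_ring
        _ = ∑ z, s.e x * r * s.e z * (t * s.e y) := by
            rw [Finset.mul_sum, Finset.sum_mul]
        _ = _ := by
            refine Finset.sum_congr rfl fun z _ => ?_
            calc s.e x * r * s.e z * (t * s.e y) = s.e x * r * (s.e z * s.e z) * (t * s.e y) := by
                  rw [s.idem]
              _ = _ := by noncomm_ring
    rw [h1]
    refine Finset.sum_eq_zero fun z _ => ?_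
    by_cases h : x = z
    · subst h
      rw [ht _ _ hxy, mul_zero]
    · rw [hr _ _ h, zero_mul]
  one_mem' := by
    intro x y hxy
    rw [mul_one, s.orth _ _ hxy]
  add_mem' := by
    intro r t hr ht x y hxy
    rw [mul_add, add_mul, hr _ _ hxy, ht _ _ hxy, add_zero]
  zero_mem' := by
    intro x y hxy
    rw [mul_zero, zero_mul]
  neg_mem' := by
    intro r hr x y hxy
    rw [mul_neg, neg_mul, hr _ _ hxy, neg_zero]

theorem mem_D {r : A} : r ∈ s.D ↔ ∀ x y, x ≠ y → s.e x * r * s.e y = 0 := Iff.rfl

theorem corner_D (x : X) {r : A} (h1 : s.e x * r = r) (h2 : r * s.e x = r) : r ∈ s.D := by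
  intro y z hyz
  by_cases h : y = x
  · subst h
    rw [h1, ← h2, mul_assoc, s.orth _ _ hyz, mul_zero]
  · rw [← h1, ← mul_assoc, s.orth _ _ h, zero_mul, zero_mul]

theorem e_D (x : X) : s.e x ∈ s.D := s.corner_D x (s.idem x) (s.idem x)

theorem mulSum (r t : A) (x y : X) :
    s.e x * (r * t) * s.e y = ∑ z, (s.e x * r * s.e z) * (s.e z * t * s.e y) := by
  calc s.e x * (r * t) * s.e y = s.e x * r * (∑ z, s.e z) * (t * s.e y) := by
        rw [s.tot]; noncomm_ring
    _ = ∑ z, s.e x * r * s.e z * (t * s.e y) := by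
        rw [Finset.mul_sum, Finset.sum_mul]
    _ = _ := by
        refine Finset.sum_congr rfl fun z _ => ?_
        calc s.e x * r * s.e z * (t * s.e y) = s.e x * r * (s.e z * s.e z) * (t * s.e y) := by
              rw [s.idem]
          _ = _ := by noncomm_ring

theorem dec (r : A) : r = ∑ x, ∑ y, s.e x * r * s.e y := by
  calc r = (∑ x, s.e x) * r * (∑ y, s.e y) := by rw [s.tot, one_mul, mul_one]
    _ = _ := by
      rw [Finset.sum_mul, Finset.sum_mul]
      refine Finset.sum_congr rfl fun x _ => ?_
      rw [Finset.mul_sum]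

/-- The group of a subring. -/
def GG [Finite A] (P : Subring A) (hP : s.D ≤ P) : Subgroup s.G where
  carrier := {g | ∀ a b, g.v a b ∈ P}
  mul_mem' := by
    intro g h hg hh a b
    show (g.v * h.v) a b ∈ P
    rw [Matrix.mul_apply]
    exact P.sum_mem fun c _ => P.mul_mem (hg a c) (hh c b)
  one_mem' := by
    intro a b
    show s.E a b ∈ P
    by_cases h : a = b
    · subst h
      rw [E_same]
      exact hP (s.e_D _)
    · rw [s.E_ne h]
      exact P.zero_mem
  inv_mem' := by
    intro g hg
    have hpow : ∀ n : ℕ, ∀ a b, (g ^ n).v a b ∈ P := by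
      intro n
      induction n with
      | zero =>
        intro a b
        rw [pow_zero]
        show s.E a b ∈ P
        by_cases h : a = b
        · subst h
          rw [E_same]
          exact hP (s.e_D _)
        · rw [s.E_ne h]
          exact P.zero_mem
      | succ n ih =>
        intro a b
        rw [pow_succ]
        show ((g ^ n).v * g.v) a b ∈ P
        rw [Matrix.mul_apply]
        exact P.sum_mem fun c _ => P.mul_mem (ih a c) (hg c b)
    have h1 : g⁻¹ = g ^ (orderOf g - 1) := by
      rw [inv_eq_iff_mul_eq_one, ← pow_succ']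
      have : orderOf g - 1 + 1 = orderOf g := Nat.sub_add_cancel (orderOf_pos g)
      rw [this, pow_orderOf_eq_one]
    intro a b
    rw [h1]
    exact hpow _ a b

theorem mem_GG [Finite A] {P : Subring A} {hP : s.D ≤ P} {g : s.G} :
    g ∈ s.GG P hP ↔ ∀ a b, g.v a b ∈ P := Iff.rfl

/-- the diagonal group -/
def H [Finite A] : Subgroup s.G := s.GG s.D le_rfl

/-- transvections: `single a b r` squares to zero -/
theorem sq0 {a b : N} (h : a ≠ b) (r t : A) : single a b r * single a b t = 0 :=
  Matrix.single_mul_single_of_ne _ _ _ _ (Ne.symm h) _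

/-- a transvection of the group of `P` -/
theorem has_GG [Finite A] {P : Subring A} {hP : s.D ≤ P} {a b : N} (h : a ≠ b) {r : A}
    (h1 : s.f a * r = r) (h2 : r * s.f b = r) (hr : r ∈ P) :
    Has (s.GG P hP) (s.E + single a b r) := by
  refine ⟨el (single a b r) (s.E_single h1) (s.single_E h2) (sq0 h _ _), ?_, rfl⟩
  intro c d
  show (s.E + single a b r) c d ∈ P
  rw [Matrix.add_apply]
  refine P.add_mem ?_ ?_
  · by_cases h : c = d
    · subst h
      rw [E_same]
      exact hP (s.e_D _)
    · rw [s.E_ne h]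
      exact P.zero_mem
  · rw [Matrix.single_apply]
    split_ifs
    · exact hr
    · exact P.zero_mem

theorem has_H [Finite A] {K : Subgroup s.G} (hK : s.H ≤ K) {a b : N} (h : a ≠ b)
    (hq : s.q a = s.q b) {r : A} (h1 : s.f a * r = r) (h2 : r * s.f b = r) :
    Has K (s.E + single a b r) := by
  have h2' : r * s.e (s.q a) = r := by rw [hq]; exact h2
  obtain ⟨g, hg, e⟩ := s.has_GG (P := s.D) (hP := le_rfl) h h1 h2 (s.corner_D (s.q a) h1 h2')
  exact ⟨g, hK hg, e⟩

/-- moving a transvection inside the blocks -/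
theorem move [Finite A] {K : Subgroup s.G} (hK : s.H ≤ K) {a b a' b' : N} (hq : s.q a ≠ s.q b)
    (ha : s.q a' = s.q a) (hb : s.q b' = s.q b) {r : A} (h1 : s.f a * r = r)
    (h2 : r * s.f b = r) (h : Has K (s.E + single a b r)) : Has K (s.E + single a' b' r) := by
  have hfa : s.f a' = s.f a := by unfold f; rw [ha]
  have hfb : s.f b' = s.f b := by unfold f; rw [hb]
  have hab : a ≠ b := fun h => hq (by rw [h])
  have ha'b : a' ≠ b := fun h => hq (by rw [← ha, h])
  have ha'b' : a' ≠ b' := fun h => hq (by rw [← ha, h, hb])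
  have step1 : Has K (s.E + single a' b r) := by
    by_cases haa : a' = a
    · rw [haa]; exact h
    · have hV := s.has_H hK haa ha (r := s.f a) (by rw [hfa, ff]) (s.ff a)
      have := has_comm (U := single a b r) (V := single a' a (s.f a)) (s.E_single h1)
        (s.single_E h2) (sq0 hab _ _) (s.E_single (by rw [hfa, ff])) (s.single_E (s.ff a))
        (sq0 haa _ _) (Matrix.single_mul_single_of_ne _ _ _ _ (Ne.symm ha'b) _) h hV
      rwa [Matrix.single_mul_single_same, h1] at this
  by_cases hbb : b' = b
  · rw [hbb]; exact step1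
  · have hU := s.has_H hK (Ne.symm hbb) hb.symm (r := s.f b) (s.ff b) (by rw [hfb, ff])
    have := has_comm (U := single b b' (s.f b)) (V := single a' b r) (s.E_single (s.ff b))
      (s.single_E (by rw [hfb, ff])) (sq0 (Ne.symm hbb) _ _) (s.E_single (by rw [hfa, h1]))
      (s.single_E h2) (sq0 ha'b _ _) (Matrix.single_mul_single_of_ne _ _ _ _ (Ne.symm ha'b') _) hU
      step1
    rwa [Matrix.single_mul_single_same, h2] at this

end Su

end Vale.Agent.P183.H317
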