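import Vale.Agent.P183.H317.Mat

/-!
The ring of transvections of an intermediate group, rank one elements.
-/

set_option linter.all false

namespace Vale.Agent.P183.H317

open Matrix Finset

variable {A X N : Type} [Ring A] [Fintype X] [DecidableEq X] [Fintype N] [DecidableEq N]

theorem single_ap' (a b x y : N) (r : A) :
    single a b r x y = if y = b then (if x = a then r else 0) else 0 := by
  rw [Matrix.single_apply]
  by_cases hy : y = b
  · rw [if_pos hy]
    by_cases hx : x = a
    · rw [if_pos hx, if_pos ⟨hx.symm, hy.symm⟩]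
    · rw [if_neg hx, if_neg (fun h => hx h.1.symm)]
  · rw [if_neg hy, if_neg (fun h => hy h.2.symm)]

namespace Su

variable (s : Su A X N)

theorem has_E0 {K : Subgroup s.G} {a b : N} {r : A} (h : r = 0) : Has K (s.E + single a b r) := by
  rw [h, Matrix.single_zero, add_zero]
  exact has_one K

/-- rank one elements of `K` give transvections -/
theorem rank_one [Finite A] {K : Subgroup s.G} (hK : s.H ≤ K) (u φ : N → A)
    (hu : ∀ x, s.f x * u x = u x) (hφ : ∀ y, φ y * s.f y = φ y) (h0 : ∑ x, φ x * u x = 0)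
    (hT : Has K (s.E + Matrix.of fun x y => u x * φ y)) {a b : N} (hab : a ≠ b) :
    Has K (s.E + single a b (u a * φ b)) := by
  have hr1 : s.f a * (u a * φ b) = u a * φ b := by rw [← mul_assoc, hu]
  have hr2 : (u a * φ b) * s.f b = u a * φ b := by rw [mul_assoc, hφ]
  by_cases hq : s.q a = s.q b
  · exact s.has_H hK hab hq hr1 hr2
  obtain ⟨c, c', hcc, hca, hca', hqc, hqc', hφc⟩ := s.pig a φ
  have hfc : s.f c = s.f a := by unfold f; rw [hqc]
  have hfc' : s.f c' = s.f a := by unfold f; rw [hqc']
  obtain ⟨p, hqp, hpb, _⟩ := s.three (s.q b) b b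
  have hfp : s.f p = s.f b := by unfold f; rw [hqp]
  have hpa : p ≠ a := fun h => hq (by rw [← h, hqp])
  have hpc : p ≠ c := fun h => hq (by rw [← hqc, ← h, hqp])
  have hpc' : p ≠ c' := fun h => hq (by rw [← hqc', ← h, hqp])
  -- U and V
  obtain ⟨U, hU⟩ : ∃ U : Matrix N N A, U = Matrix.of fun x y => u x * φ y := ⟨_, rfl⟩
  have hUap : ∀ x y, U x y = u x * φ y := by intro x y; rw [hU]; rfl
  rw [← hU] at hT
  have hU1 : s.E * U = U := by
    ext x y
    rw [E_mul_ap, hUap, ← mul_assoc, hu]
  have hU2 : U * s.E = U := by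
    ext x y
    rw [mul_E_ap, hUap, mul_assoc, hφ]
  have hU0 : U * U = 0 := by
    ext x y
    rw [Matrix.mul_apply]
    have : ∀ z, U x z * U z y = u x * (φ z * u z) * φ y := by
      intro z
      rw [hUap, hUap]
      noncomm_ring
    rw [Finset.sum_congr rfl fun z _ => this z, ← Finset.sum_mul, ← Finset.mul_sum, h0, mul_zero,
      zero_mul]
    rfl
  obtain ⟨V, hV⟩ : ∃ V : Matrix N N A, V = single c a (s.f a) - single c' a (s.f a) := ⟨_, rfl⟩
  -- the element `E + V` lies in `K`
  have s1 : s.E * single c a (s.f a) = single c a (s.f a) := s.E_single (by rw [hfc, ff])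
  have s2 : s.E * single c' a (s.f a) = single c' a (s.f a) := s.E_single (by rw [hfc', ff])
  have s3 : single c a (s.f a) * s.E = single c a (s.f a) := s.single_E (s.ff a)
  have s4 : single c' a (s.f a) * s.E = single c' a (s.f a) := s.single_E (s.ff a)
  have hV1 : s.E * V = V := by rw [hV, mul_sub, s1, s2]
  have hV2 : V * s.E = V := by rw [hV, sub_mul, s3, s4]
  have hV0 : V * V = 0 := by
    rw [hV, sub_mul, mul_sub, mul_sub, sq0 hca, sq0 hca',
      Matrix.single_mul_single_of_ne _ _ _ _ (Ne.symm hca'),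
      Matrix.single_mul_single_of_ne _ _ _ _ (Ne.symm hca)]
    simp
  have hHV : Has K (s.E + V) := by
    have h1 := s.has_H hK hca hqc (r := s.f a) (by rw [hfc, ff]) (s.ff a)
    have h2 := has_sub s2 s4 (sq0 hca' _ _)
      (s.has_H hK hca' hqc' (r := s.f a) (by rw [hfc', ff]) (s.ff a))
    have h3 := has_mul h1 h2
    have e : (s.E + single c a (s.f a)) * (s.E - single c' a (s.f a)) = s.E + V := by
      rw [add_mul, mul_sub, mul_sub, (inferInstance : Fact (s.E * s.E = s.E)).out, s2, s3,
        Matrix.single_mul_single_of_ne _ _ _ _ (Ne.symm hca'), hV]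
      abel
    rwa [e] at h3
  have hUV : U * V = 0 := by
    ext x y
    rw [hV, mul_sub, Matrix.sub_apply, mul_single_ap, mul_single_ap, hUap, hUap, hφc, sub_self]
    rfl
  have hVU := has_comm hU1 hU2 hU0 hV1 hV2 hV0 hUV hT hHV
  -- second step
  obtain ⟨U', hU'⟩ : ∃ U' : Matrix N N A, U' = V * U := ⟨_, rfl⟩
  rw [← hU'] at hVU
  have hU'1 : s.E * U' = U' := by rw [hU', ← mul_assoc, hV1]
  have hU'2 : U' * s.E = U' := by rw [hU', mul_assoc, hU2]
  have hU'0 : U' * U' = 0 := by
    rw [hU', mul_assoc, ← mul_assoc U V U, hUV, zero_mul, mul_zero]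
  have hU'ap : ∀ x y, U' x y = (if x = c then u a * φ y else 0) - (if x = c' then u a * φ y else 0) := by
    intro x y
    rw [hU', hV, sub_mul, Matrix.sub_apply, single_mul_ap, single_mul_ap, hUap, ← mul_assoc, hu]
  obtain ⟨W, hW⟩ : ∃ W : Matrix N N A, W = single b p (s.f b) := ⟨_, rfl⟩
  have hW1 : s.E * W = W := by rw [hW]; exact s.E_single (s.ff b)
  have hW2 : W * s.E = W := by rw [hW]; exact s.single_E (by rw [hfp, ff])
  have hW0 : W * W = 0 := by rw [hW]; exact sq0 (Ne.symm hpb) _ _
  have hHW : Has K (s.E + W) := by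
    rw [hW]
    exact s.has_H hK (Ne.symm hpb) hqp.symm (s.ff b) (by rw [hfp, ff])
  have hWU' : W * U' = 0 := by
    ext x y
    rw [hW, single_mul_ap, hU'ap, if_neg hpc, if_neg hpc']
    simp
  have h2 := has_comm hW1 hW2 hW0 hU'1 hU'2 hU'0 hWU' hHW hVU
  have e2 : U' * W = single c p (u a * φ b) - single c' p (u a * φ b) := by
    ext x y
    rw [hW, mul_single_ap, hU'ap, Matrix.sub_apply, single_ap', single_ap']
    by_cases hy : y = p
    · rw [if_pos hy, if_pos hy, if_pos hy, sub_mul, ite_mul, ite_mul, zero_mul, mul_assoc, hφ]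
    · rw [if_neg hy, if_neg hy, if_neg hy, sub_self]
  -- third step
  have hU''0 : (U' * W) * (U' * W) = 0 := by
    rw [mul_assoc, ← mul_assoc W U' W, hWU', zero_mul, mul_zero]
  have hU''1 : s.E * (U' * W) = U' * W := by rw [← mul_assoc, hU'1]
  have hU''2 : (U' * W) * s.E = U' * W := by rw [mul_assoc, hW2]
  have hZ1 : s.E * single a c (s.f a) = single a c (s.f a) := s.E_single (s.ff a)
  have hZ2 : single a c (s.f a) * s.E = single a c (s.f a) := s.single_E (by rw [hfc, ff])
  have hHZ := s.has_H hK (Ne.symm hca) hqc.symm (r := s.f a) (s.ff a) (by rw [hfc, ff])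
  have hUZ : (U' * W) * single a c (s.f a) = 0 := by
    rw [e2, sub_mul, Matrix.single_mul_single_of_ne _ _ _ _ hpa,
      Matrix.single_mul_single_of_ne _ _ _ _ hpa, sub_self]
  have h4 := has_comm hU''1 hU''2 hU''0 hZ1 hZ2 (sq0 (Ne.symm hca) _ _) hUZ h2 hHZ
  have e4 : single a c (s.f a) * (U' * W) = single a p (u a * φ b) := by
    rw [e2, mul_sub, Matrix.single_mul_single_same, hr1,
      Matrix.single_mul_single_of_ne _ _ _ _ hcc, sub_zero]
  rw [e4] at h4
  exact s.move hK (a := a) (b := p) (by rw [hqp]; exact hq) rfl hqp.symm hr1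
    (by rw [hfp]; exact hr2) h4

/-- the ring of the transvections in `K` -/
def P [Finite A] (K : Subgroup s.G) (hK : s.H ≤ K) : Subring A where
  carrier := {r | ∀ a b, a ≠ b → Has K (s.E + single a b (s.f a * r * s.f b))}
  zero_mem' := by
    intro a b _
    exact s.has_E0 (by rw [mul_zero, zero_mul])
  one_mem' := by
    intro a b hab
    rw [mul_one]
    by_cases hq : s.q a = s.q b
    · refine s.has_H hK hab hq ?_ ?_
      · rw [← mul_assoc, ff]
      · rw [mul_assoc, ff]
    · exact s.has_E0 (s.f_orth hq)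
  add_mem' := by
    intro r t hr ht a b hab
    have h := has_add (U := single a b (s.f a * r * s.f b)) (V := single a b (s.f a * t * s.f b))
      (s.E_single (by rw [← mul_assoc, ← mul_assoc, ff]))
      (s.single_E (by rw [mul_assoc, ff])) (sq0 hab _ _) (hr a b hab) (ht a b hab)
    rwa [← Matrix.single_add, ← add_mul, ← mul_add] at h
  neg_mem' := by
    intro r hr a b hab
    have h := has_sub (U := single a b (s.f a * r * s.f b))
      (s.E_single (by rw [← mul_assoc, ← mul_assoc, ff]))
      (s.single_E (by rw [mul_assoc, ff])) (sq0 hab _ _) (hr a b hab)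
    rw [mul_neg, neg_mul, ← Matrix.single_neg, ← sub_eq_add_neg]
    exact h
  mul_mem' := by
    intro r t hr ht a b hab
    have key : ∀ z, Has K (s.E + single a b ((s.f a * r * s.e z) * (s.e z * t * s.f b))) := by
      intro z
      obtain ⟨c, hc, hca, hcb⟩ := s.three z a b
      have hfc : s.f c = s.e z := by unfold f; rw [hc]
      have h1 := hr a c (Ne.symm hca)
      have h2 := ht c b hcb
      rw [hfc] at h1 h2
      have hz := s.idem z
      have := has_comm (U := single c b (s.e z * t * s.f b)) (V := single a c (s.f a * r * s.e z))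
        (s.E_single (by rw [hfc, ← mul_assoc, ← mul_assoc, hz]))
        (s.single_E (by rw [mul_assoc, ff])) (sq0 hcb _ _)
        (s.E_single (by rw [← mul_assoc, ← mul_assoc, ff]))
        (s.single_E (by rw [hfc, mul_assoc, hz])) (sq0 (Ne.symm hca) _ _)
        (Matrix.single_mul_single_of_ne _ _ _ _ (Ne.symm hab) _) h2 h1
      rwa [Matrix.single_mul_single_same] at this
    have hsum : ∀ S : Finset X, Has K (s.E +
        single a b (∑ z ∈ S, (s.f a * r * s.e z) * (s.e z * t * s.f b))) := by
      intro S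
      induction S using Finset.induction_on with
      | empty => exact s.has_E0 (Finset.sum_empty)
      | insert z S hz ih =>
        rw [Finset.sum_insert hz]
        have hL : ∀ z, s.f a * ((s.f a * r * s.e z) * (s.e z * t * s.f b)) =
            (s.f a * r * s.e z) * (s.e z * t * s.f b) := by
          intro z
          have : s.f a * ((s.f a * r * s.e z) * (s.e z * t * s.f b)) =
              (s.f a * s.f a) * r * s.e z * (s.e z * t * s.f b) := by simp only [mul_assoc]
          rw [this, ff]
        have hR : ∀ z, ((s.f a * r * s.e z) * (s.e z * t * s.f b)) * s.f b =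
            (s.f a * r * s.e z) * (s.e z * t * s.f b) := by
          intro z
          rw [mul_assoc, mul_assoc (s.e z * t), ff]
        have h := has_add
          (U := single a b ((s.f a * r * s.e z) * (s.e z * t * s.f b)))
          (V := single a b (∑ z ∈ S, (s.f a * r * s.e z) * (s.e z * t * s.f b)))
          (s.E_single (hL z))
          (s.single_E (by rw [Finset.sum_mul]; exact Finset.sum_congr rfl fun z _ => hR z))
          (sq0 hab _ _) (key z) ih
        rwa [← Matrix.single_add] at h
    have e := s.mulSum r t (s.q a) (s.q b)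
    show Has K (s.E + single a b (s.e (s.q a) * (r * t) * s.e (s.q b)))
    rw [e]
    exact hsum univ

theorem mem_P [Finite A] {K : Subgroup s.G} {hK : s.H ≤ K} {r : A} : r ∈ s.P K hK ↔
    ∀ a b, a ≠ b → Has K (s.E + single a b (s.f a * r * s.f b)) := Iff.rfl

theorem D_le_P [Finite A] {K : Subgroup s.G} (hK : s.H ≤ K) : s.D ≤ s.P K hK := by
  intro r hr a b hab
  by_cases hq : s.q a = s.q b
  · refine s.has_H hK hab hq ?_ ?_
    · rw [← mul_assoc, ← mul_assoc, ff]
    · rw [mul_assoc, ff]
  · exact s.has_E0 (hr _ _ hq)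

/-- membership of homogeneous elements -/
theorem homog_mem_P [Finite A] {K : Subgroup s.G} (hK : s.H ≤ K) {x y : N} {r : A}
    (h1 : s.f x * r = r) (h2 : r * s.f y = r)
    (h : ∀ a b, a ≠ b → s.q a = s.q x → s.q b = s.q y → Has K (s.E + single a b r)) :
    r ∈ s.P K hK := by
  intro a b hab
  by_cases ha : s.q a = s.q x
  · by_cases hb : s.q b = s.q y
    · have hfa : s.f a = s.f x := by unfold f; rw [ha]
      have hfb : s.f b = s.f y := by unfold f; rw [hb]
      rw [hfa, h1, hfb, h2]
      exact h a b hab ha hb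
    · refine s.has_E0 ?_
      rw [← h2, mul_assoc, mul_assoc, s.f_orth (Ne.symm hb), mul_zero, mul_zero]
  · refine s.has_E0 ?_
    rw [← h1, ← mul_assoc, s.f_orth ha, zero_mul, zero_mul]

/-- the transvections of `P K` -/
theorem has_P [Finite A] {K : Subgroup s.G} {hK : s.H ≤ K} {a b : N} (hab : a ≠ b) {r : A}
    (h1 : s.f a * r = r) (h2 : r * s.f b = r) (hr : r ∈ s.P K hK) :
    Has K (s.E + single a b r) := by
  have := hr a b hab
  rwa [h1, h2] at this

end Su

end Vale.Agent.P183.H317
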